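/-
P235-M, static statement (S): double counting with weights.
-/
import Mathlib

namespace Vale.Agent.P235.R2.H433.S

open Finset

/-- weighted double counting: `E` a relation between `S` and `T`, `N > 0` with `N v = N' u` along
the relation, out-degree `≥ N / A`, in-degree `≤ B * N'`. -/
theorem dcount {α : Type*} (S T : Finset α) (E : α → α → Prop) (N N' : α → ℕ) (A B : ℕ)
    (hpos : ∀ v ∈ S, 0 < N v) (heq : ∀ v ∈ S, ∀ u ∈ T, E v u → N v = N' u)
    (hout : ∀ v ∈ S, ∃ R : Finset α, R ⊆ T ∧ (∀ u ∈ R, E v u) ∧ N v ≤ A * #R)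
    (hin : ∀ u ∈ T, ∃ Q : Finset α, (∀ v ∈ S, E v u → v ∈ Q) ∧ #Q ≤ B * N' u) :
    #S ≤ A * B * #T := by
  classical
  have h1 : (#S : ℚ) ≤ ∑ v ∈ S, ∑ u ∈ T with E v u, (A : ℚ) / N v := by
    rw [card_eq_sum_ones, Nat.cast_sum]
    apply sum_le_sum
    intro v hv
    obtain ⟨R, hR, hRE, hN⟩ := hout v hv
    have hNv : (0 : ℚ) < N v := by exact_mod_cast hpos v hv
    rw [sum_const, nsmul_eq_mul, Nat.cast_one]
    have h2 : #R ≤ #{u ∈ T | E v u} := by
      apply card_le_card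
      intro u hu
      exact mem_filter.2 ⟨hR hu, hRE u hu⟩
    have h3 : (N v : ℚ) ≤ A * #R := by exact_mod_cast hN
    have h4 : (A : ℚ) * #R ≤ A * #{u ∈ T | E v u} := by
      have : (#R : ℚ) ≤ #{u ∈ T | E v u} := by exact_mod_cast h2
      exact mul_le_mul_of_nonneg_left this (by positivity)
    rw [mul_div_assoc', le_div_iff₀ hNv]
    linarith
  have h2 : ∑ v ∈ S, ∑ u ∈ T with E v u, (A : ℚ) / N v =
      ∑ u ∈ T, ∑ v ∈ S with E v u, (A : ℚ) / N v := by
    simp only [sum_filter]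
    exact sum_comm
  have h3 : ∑ u ∈ T, ∑ v ∈ S with E v u, (A : ℚ) / N v ≤ ∑ u ∈ T, ((A * B : ℕ) : ℚ) := by
    apply sum_le_sum
    intro u hu
    obtain ⟨Q, hQ, hQc⟩ := hin u hu
    by_cases h0 : N' u = 0
    · have : ∀ v ∈ S, ¬ E v u := by
        intro v hv hE
        have := hpos v hv
        rw [heq v hv u hu hE] at this
        omega
      rw [sum_eq_zero]
      · positivity
      · intro v hv
        exact absurd (mem_filter.1 hv).2 (this v (mem_filter.1 hv).1)
    · have hN : (0 : ℚ) < N' u := by exact_mod_cast Nat.pos_of_ne_zero h0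
      have h4 : ∑ v ∈ S with E v u, (A : ℚ) / N v = #{v ∈ S | E v u} * ((A : ℚ) / N' u) := by
        rw [← nsmul_eq_mul, ← sum_const]
        apply sum_congr rfl
        intro v hv
        rw [heq v (mem_filter.1 hv).1 u hu (mem_filter.1 hv).2]
      rw [h4]
      have h5 : (#{v ∈ S | E v u} : ℚ) ≤ B * N' u := by
        have : #{v ∈ S | E v u} ≤ #Q := by
          apply card_le_card
          intro v hv
          exact hQ v (mem_filter.1 hv).1 (mem_filter.1 hv).2
        exact_mod_cast this.trans hQc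
      calc (#{v ∈ S | E v u} : ℚ) * ((A : ℚ) / N' u) ≤ (B * N' u) * ((A : ℚ) / N' u) :=
            mul_le_mul_of_nonneg_right h5 (by positivity)
        _ = ((A * B : ℕ) : ℚ) := by
            push_cast; field_simp
  have h6 : (#S : ℚ) ≤ ((A * B * #T : ℕ) : ℚ) := by
    calc (#S : ℚ) ≤ _ := h1
      _ = _ := h2
      _ ≤ _ := h3
      _ = _ := by rw [sum_const, nsmul_eq_mul]; push_cast; ring
  exact_mod_cast h6

/-- number of candidates below a level -/
theorem cand_low (k : ℕ) (u : ℕ → ℕ) (y M : ℕ) (Q : Finset ℕ)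
    (hQ : ∀ q ∈ Q, q < k ∧ u q < y ∧ #{i ∈ range k | u q ≤ u i ∧ u i < y} ≤ M) : #Q ≤ M := by
  classical
  rcases Q.eq_empty_or_nonempty with rfl | hne
  · simp
  obtain ⟨q0, hq0, hmin⟩ := exists_min_image Q u hne
  refine le_trans (card_le_card ?_) (hQ q0 hq0).2.2
  intro q hq
  simp only [mem_filter, mem_range]
  exact ⟨(hQ q hq).1, hmin q hq, (hQ q hq).2.1⟩

/-- number of candidates above a level -/
theorem cand_high (k : ℕ) (u : ℕ → ℕ) (x M : ℕ) (Q : Finset ℕ)
    (hQ : ∀ q ∈ Q, q < k ∧ k + x < u (k + q) ∧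
      #{j ∈ range k | k + x < u (k + j) ∧ u (k + j) ≤ u (k + q)} ≤ M) : #Q ≤ M := by
  classical
  rcases Q.eq_empty_or_nonempty with rfl | hne
  · simp
  obtain ⟨q0, hq0, hmax⟩ := exists_max_image Q (fun q => u (k + q)) hne
  refine le_trans (card_le_card ?_) (hQ q0 hq0).2.2
  intro q hq
  simp only [mem_filter, mem_range]
  exact ⟨(hQ q hq).1, (hQ q hq).2.1, hmax q hq⟩

end Vale.Agent.P235.R2.H433.S
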