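/-
P235-M, static statement (S) (helper30 row 2464), Lean by helper433.

Elements of the ideal `{v : |v x - x| ≤ k}` of `S_{2k}` are represented by functions `v : ℕ → ℕ`
(only the values on `range (2k)` matter).  Left positions `x < k`, right positions `k + y`, low
values `a < k`, high values `k + b`.
-/
import Mathlib

namespace Vale.Agent.P235.R2.H433.S

open Finset

/-- exchange the values at two positions -/
def sw (v : ℕ → ℕ) (i j : ℕ) : ℕ → ℕ := fun t => v (Equiv.swap i j t)

@[simp] theorem sw_left (v : ℕ → ℕ) (i j : ℕ) : sw v i j i = v j := by simp [sw]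
@[simp] theorem sw_right (v : ℕ → ℕ) (i j : ℕ) : sw v i j j = v i := by simp [sw]
theorem sw_of_ne (v : ℕ → ℕ) {i j t : ℕ} (h1 : t ≠ i) (h2 : t ≠ j) : sw v i j t = v t := by
  simp [sw, Equiv.swap_apply_of_ne_of_ne h1 h2]
@[simp] theorem sw_sw (v : ℕ → ℕ) (i j : ℕ) : sw (sw v i j) i j = v := by
  funext t; simp [sw]

/-- elements of the ideal of the block swap -/
structure Ok (k : ℕ) (v : ℕ → ℕ) : Prop where
  lt : ∀ x < 2 * k, v x < 2 * k
  inj : ∀ x < 2 * k, ∀ y < 2 * k, v x = v y → x = y
  up : ∀ x < 2 * k, v x ≤ x + k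
  dn : ∀ x < 2 * k, x ≤ v x + k

/-- `U` is closed under exchanges upwards which stay in the ideal -/
def UpCl (k : ℕ) (U : Finset (ℕ → ℕ)) : Prop :=
  ∀ v ∈ U, ∀ i j, i < j → j < 2 * k → v i < v j → v j ≤ i + k → j ≤ v i + k → sw v i j ∈ U

variable (k : ℕ) (v : ℕ → ℕ)

/-- the number of left positions with high values -/
def rr : ℕ := #{x ∈ range k | k ≤ v x}

/-- `#X_A[1,x]` -/
def nXA (x : ℕ) : ℕ := #{i ∈ range k | v i < k ∧ i ≤ x}
/-- `#V_A[y,k]` -/
def nVA (y : ℕ) : ℕ := #{i ∈ range k | v i < k ∧ y ≤ v i}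
/-- `#V_B[1,x]` -/
def nVB (x : ℕ) : ℕ := #{j ∈ range k | k ≤ v (k + j) ∧ v (k + j) ≤ k + x}
/-- `#Y_B[y,k]` -/
def nYB (y : ℕ) : ℕ := #{j ∈ range k | k ≤ v (k + j) ∧ y ≤ j}
/-- `low(x,y)` -/
def low (x y : ℕ) : ℕ := #{i ∈ range k | v i < k ∧ i ≤ x ∧ v i < y}
/-- `high(x,y)` -/
def high (x y : ℕ) : ℕ := #{j ∈ range k | k ≤ v (k + j) ∧ y ≤ j ∧ k + x < v (k + j)}
/-- the partners of an upward exchange at `x` -/
def PA (x y : ℕ) : Finset ℕ := {q ∈ range k | v q < k ∧ x < q ∧ y ≤ v q}
/-- the partners of an exchange at `y` -/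
def PB (x y : ℕ) : Finset ℕ := {q ∈ range k | k ≤ v (k + q) ∧ q < y ∧ v (k + q) ≤ k + x}
/-- the C-rooks over `x` -/
def CC (x : ℕ) : Finset ℕ := {i ∈ range k | k ≤ v i ∧ x < i ∧ v i ≤ k + x}
/-- the D-rooks over `y` -/
def DD (y : ℕ) : Finset ℕ := {j ∈ range k | v (k + j) < k ∧ j < y ∧ y ≤ v (k + j)}
/-- `c(x)` -/
def cc (x : ℕ) : ℕ := #(CC k v x)
/-- `d(y)` -/
def dd (y : ℕ) : ℕ := #(DD k v y)

variable {k v}

theorem PA_card (x y : ℕ) : #(PA k v x y) + nXA k v x = nVA k v y + low k v x y := by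
  unfold PA nXA nVA low
  have h1 : #{i ∈ range k | v i < k ∧ i ≤ x} =
      #{i ∈ range k | v i < k ∧ i ≤ x ∧ v i < y} + #{i ∈ range k | v i < k ∧ i ≤ x ∧ y ≤ v i} := by
    rw [← card_union_of_disjoint]
    · congr 1; ext i; simp only [mem_filter, mem_range, mem_union]; omega
    · rw [disjoint_left]; intro i; simp only [mem_filter, mem_range]; omega
  have h2 : #{i ∈ range k | v i < k ∧ y ≤ v i} =
      #{q ∈ range k | v q < k ∧ x < q ∧ y ≤ v q} + #{i ∈ range k | v i < k ∧ i ≤ x ∧ y ≤ v i} := by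
    rw [← card_union_of_disjoint]
    · congr 1; ext i; simp only [mem_filter, mem_range, mem_union]; omega
    · rw [disjoint_left]; intro i; simp only [mem_filter, mem_range]; omega
  omega

theorem PB_card (x y : ℕ) : #(PB k v x y) + nYB k v y = nVB k v x + high k v x y := by
  unfold PB nYB nVB high
  have h1 : #{j ∈ range k | k ≤ v (k + j) ∧ y ≤ j} =
      #{j ∈ range k | k ≤ v (k + j) ∧ y ≤ j ∧ k + x < v (k + j)} +
        #{j ∈ range k | k ≤ v (k + j) ∧ y ≤ j ∧ v (k + j) ≤ k + x} := by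
    rw [← card_union_of_disjoint]
    · congr 1; ext i; simp only [mem_filter, mem_range, mem_union]; omega
    · rw [disjoint_left]; intro i; simp only [mem_filter, mem_range]; omega
  have h2 : #{j ∈ range k | k ≤ v (k + j) ∧ v (k + j) ≤ k + x} =
      #{q ∈ range k | k ≤ v (k + q) ∧ q < y ∧ v (k + q) ≤ k + x} +
        #{j ∈ range k | k ≤ v (k + j) ∧ y ≤ j ∧ v (k + j) ≤ k + x} := by
    rw [← card_union_of_disjoint]
    · congr 1; ext i; simp only [mem_filter, mem_range, mem_union]; omega
    · rw [disjoint_left]; intro i; simp only [mem_filter, mem_range]; omega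
  omega

/-- surjectivity on `range (2k)` -/
theorem Ok.surj (h : Ok k v) : ∀ b < 2 * k, ∃ x < 2 * k, v x = b := by
  intro b hb
  have h1 : (range (2 * k)).image v = range (2 * k) := by
    apply Finset.eq_of_subset_of_card_le
    · intro b hb
      rw [mem_image] at hb
      obtain ⟨x, hx, rfl⟩ := hb
      rw [mem_range] at *
      exact h.lt x hx
    · rw [card_image_of_injOn]
      intro x hx y hy hxy
      rw [coe_range, Set.mem_Iio] at hx hy
      exact h.inj x hx y hy hxy
  have h2 : b ∈ (range (2 * k)).image v := by rw [h1]; exact mem_range.2 hb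
  rw [mem_image] at h2
  obtain ⟨x, hx, hxb⟩ := h2
  exact ⟨x, mem_range.1 hx, hxb⟩

/-- counting all values in an interval of high values: positions left + right -/
theorem Ok.count_high (h : Ok k v) {x : ℕ} (hx : x < k) :
    #{i ∈ range k | k ≤ v i ∧ v i ≤ k + x} + nVB k v x = x + 1 := by
  have h1 : #{t ∈ range (2 * k) | k ≤ v t ∧ v t ≤ k + x} = x + 1 := by
    have : {t ∈ range (2 * k) | k ≤ v t ∧ v t ≤ k + x}.image v = Finset.Icc k (k + x) := by
      ext b
      simp only [mem_image, mem_filter, mem_range, mem_Icc]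
      constructor
      · rintro ⟨t, ⟨_, h2⟩, rfl⟩; exact h2
      · intro hb
        obtain ⟨t, ht, htb⟩ := h.surj b (by omega)
        exact ⟨t, ⟨ht, by omega⟩, htb⟩
    have hc := congrArg Finset.card this
    rw [card_image_of_injOn, Nat.card_Icc] at hc
    · omega
    · intro s hs t ht hst
      simp only [coe_filter, mem_range, Set.mem_ofPred_eq] at hs ht
      exact h.inj s hs.1 t ht.1 hst
  have h2 : #{t ∈ range (2 * k) | k ≤ v t ∧ v t ≤ k + x} =
      #{i ∈ range k | k ≤ v i ∧ v i ≤ k + x} + nVB k v x := by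
    unfold nVB
    have : {t ∈ range (2 * k) | k ≤ v t ∧ v t ≤ k + x} =
        {i ∈ range k | k ≤ v i ∧ v i ≤ k + x} ∪
          ({j ∈ range k | k ≤ v (k + j) ∧ v (k + j) ≤ k + x}).map (addLeftEmbedding k) := by
      ext t
      simp only [mem_filter, mem_range, mem_union, mem_map, addLeftEmbedding_apply]
      constructor
      · rintro ⟨ht, h3⟩
        by_cases htk : t < k
        · exact Or.inl ⟨htk, h3⟩
        · refine Or.inr ⟨t - k, ⟨by omega, ?_⟩, by omega⟩
          rw [show k + (t - k) = t by omega]; exact h3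
      · rintro (⟨ht, h3⟩ | ⟨j, ⟨hj, h3⟩, rfl⟩)
        · exact ⟨by omega, h3⟩
        · exact ⟨by omega, h3⟩
    rw [this, card_union_of_disjoint, card_map]
    rw [disjoint_left]
    intro t
    simp only [mem_filter, mem_range, mem_map, addLeftEmbedding_apply, not_exists, not_and]
    rintro ⟨ht, _⟩ j _ hj
    omega
  omega

/-- counting all values in an interval of low values -/
theorem Ok.count_low (h : Ok k v) {y : ℕ} (_hy : y ≤ k) :
    nVA k v y + #{j ∈ range k | v (k + j) < k ∧ y ≤ v (k + j)} = k - y := by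
  have h1 : #{t ∈ range (2 * k) | v t < k ∧ y ≤ v t} = k - y := by
    have : {t ∈ range (2 * k) | v t < k ∧ y ≤ v t}.image v = Finset.Ico y k := by
      ext b
      simp only [mem_image, mem_filter, mem_range, mem_Ico]
      constructor
      · rintro ⟨t, ⟨_, h2⟩, rfl⟩; omega
      · intro hb
        obtain ⟨t, ht, htb⟩ := h.surj b (by omega)
        exact ⟨t, ⟨ht, by omega⟩, htb⟩
    have hc := congrArg Finset.card this
    rw [card_image_of_injOn, Nat.card_Ico] at hc
    · omega
    · intro s hs t ht hst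
      simp only [coe_filter, mem_range, Set.mem_ofPred_eq] at hs ht
      exact h.inj s hs.1 t ht.1 hst
  have h2 : #{t ∈ range (2 * k) | v t < k ∧ y ≤ v t} =
      nVA k v y + #{j ∈ range k | v (k + j) < k ∧ y ≤ v (k + j)} := by
    unfold nVA
    have : {t ∈ range (2 * k) | v t < k ∧ y ≤ v t} =
        {i ∈ range k | v i < k ∧ y ≤ v i} ∪
          ({j ∈ range k | v (k + j) < k ∧ y ≤ v (k + j)}).map (addLeftEmbedding k) := by
      ext t
      simp only [mem_filter, mem_range, mem_union, mem_map, addLeftEmbedding_apply]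
      constructor
      · rintro ⟨ht, h3⟩
        by_cases htk : t < k
        · exact Or.inl ⟨htk, h3⟩
        · refine Or.inr ⟨t - k, ⟨by omega, ?_⟩, by omega⟩
          rw [show k + (t - k) = t by omega]; exact h3
      · rintro (⟨ht, h3⟩ | ⟨j, ⟨hj, h3⟩, rfl⟩)
        · exact ⟨by omega, h3⟩
        · exact ⟨by omega, h3⟩
    rw [this, card_union_of_disjoint, card_map]
    rw [disjoint_left]
    intro t
    simp only [mem_filter, mem_range, mem_map, addLeftEmbedding_apply, not_exists, not_and]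
    rintro ⟨ht, _⟩ j _ hj
    omega
  omega

/-- `#X_A[1,x] = #V_B[1,x] + c(x)` -/
theorem Ok.nXA_eq (h : Ok k v) {x : ℕ} (hx : x < k) : nXA k v x = nVB k v x + cc k v x := by
  have h0 := h.count_high hx
  have h1 : nXA k v x + #{i ∈ range k | k ≤ v i ∧ i ≤ x} = x + 1 := by
    unfold nXA
    rw [← card_union_of_disjoint]
    · rw [← card_range (x + 1)]
      congr 1; ext i; simp only [mem_filter, mem_range, mem_union]; omega
    · rw [disjoint_left]; intro i; simp only [mem_filter, mem_range]; omega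
  have h2 : #{i ∈ range k | k ≤ v i ∧ v i ≤ k + x} =
      #{i ∈ range k | k ≤ v i ∧ i ≤ x} + cc k v x := by
    unfold cc CC
    rw [← card_union_of_disjoint]
    · congr 1; ext i; simp only [mem_filter, mem_range, mem_union]
      constructor
      · rintro ⟨hi, h3⟩
        by_cases hix : i ≤ x
        · left; exact ⟨hi, h3.1, hix⟩
        · right; exact ⟨hi, h3.1, by omega, h3.2⟩
      · rintro (⟨hi, h3, h4⟩ | ⟨hi, h3, h4, h5⟩)
        · have := h.up i (by omega)
          exact ⟨hi, h3, by omega⟩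
        · exact ⟨hi, h3, h5⟩
    · rw [disjoint_left]; intro i; simp only [mem_filter, mem_range]; omega
  omega

/-- `#Y_B[y,k] = #V_A[y,k] + d(y)` -/
theorem Ok.nYB_eq (h : Ok k v) {y : ℕ} (hy : y ≤ k) : nYB k v y = nVA k v y + dd k v y := by
  have h0 := h.count_low hy
  have h1 : nYB k v y + #{j ∈ range k | v (k + j) < k ∧ y ≤ j} = k - y := by
    unfold nYB
    rw [← card_union_of_disjoint]
    · rw [← Nat.card_Ico y k]
      congr 1; ext i; simp only [mem_filter, mem_range, mem_union, mem_Ico]; omega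
    · rw [disjoint_left]; intro i; simp only [mem_filter, mem_range]; omega
  have h2 : #{j ∈ range k | v (k + j) < k ∧ y ≤ v (k + j)} =
      #{j ∈ range k | v (k + j) < k ∧ y ≤ j} + dd k v y := by
    unfold dd DD
    rw [← card_union_of_disjoint]
    · congr 1; ext j; simp only [mem_filter, mem_range, mem_union]
      constructor
      · rintro ⟨hj, h3⟩
        by_cases hjy : y ≤ j
        · left; exact ⟨hj, h3.1, hjy⟩
        · right; exact ⟨hj, h3.1, by omega, h3.2⟩
      · rintro (⟨hj, h3, h4⟩ | ⟨hj, h3, h4, h5⟩)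
        · have := h.dn (k + j) (by omega)
          exact ⟨hj, h3, by omega⟩
        · exact ⟨hj, h3, h5⟩
    · rw [disjoint_left]; intro i; simp only [mem_filter, mem_range]; omega
  omega

end Vale.Agent.P235.R2.H433.S
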