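/-
P235-M, static statement (S): the exchanges and what they leave invariant.
-/
import Vale.Agent.P235.R2.H433.S.Defs
import Vale.Agent.P235.R2.H433.S.DC

namespace Vale.Agent.P235.R2.H433.S

open Finset

variable {k : ℕ} {v : ℕ → ℕ}

/-- counts of values at left positions are invariant under exchanges of left positions -/
theorem count_left (P : ℕ → Prop) [DecidablePred P] {x q : ℕ} (hx : x < k) (hq : q < k) :
    #{i ∈ range k | P (sw v x q i)} = #{i ∈ range k | P (v i)} := by
  apply card_bij' (fun i _ => Equiv.swap x q i) (fun i _ => Equiv.swap x q i)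
  · intro i hi
    simp only [mem_filter, mem_range] at hi ⊢
    refine ⟨?_, hi.2⟩
    rcases Equiv.swap_apply_def x q i with h
    rw [h]; split_ifs <;> omega
  · intro i hi
    simp only [mem_filter, mem_range] at hi ⊢
    refine ⟨?_, by simpa [sw] using hi.2⟩
    rcases Equiv.swap_apply_def x q i with h
    rw [h]; split_ifs <;> omega
  · intro i _; simp
  · intro i _; simp

/-- counts of values at right positions are invariant under exchanges of right positions -/
theorem count_right (P : ℕ → Prop) [DecidablePred P] {q y : ℕ} (hq : q < k) (hy : y < k) :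
    #{j ∈ range k | P (sw v (k + q) (k + y) (k + j))} = #{j ∈ range k | P (v (k + j))} := by
  have key : ∀ j, sw v (k + q) (k + y) (k + j) = v (k + Equiv.swap q y j) := by
    intro j
    by_cases h1 : j = q
    · subst h1; simp
    by_cases h2 : j = y
    · subst h2; simp
    rw [sw_of_ne _ (by omega) (by omega), Equiv.swap_apply_of_ne_of_ne h1 h2]
  apply card_bij' (fun i _ => Equiv.swap q y i) (fun i _ => Equiv.swap q y i)
  · intro i hi
    simp only [mem_filter, mem_range] at hi ⊢
    refine ⟨?_, by rw [← key]; exact hi.2⟩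
    rcases Equiv.swap_apply_def q y i with h
    rw [h]; split_ifs <;> omega
  · intro i hi
    simp only [mem_filter, mem_range] at hi ⊢
    refine ⟨?_, ?_⟩
    · rcases Equiv.swap_apply_def q y i with h
      rw [h]; split_ifs <;> omega
    · rw [key]; simpa using hi.2
  · intro i _; simp
  · intro i _; simp

/-- `(x,y)` is an f-pair -/
structure FP (k : ℕ) (v : ℕ → ℕ) (x y : ℕ) : Prop where
  hx : x < k
  hy : y < k
  vb : ∃ j < k, v (k + j) = k + x
  yb : k ≤ v (k + y)
  eq : nVB k v x = nYB k v y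

/-- the conditions which are not changed by the exchanges inside A and inside B -/
structure Base (k r x y : ℕ) (v : ℕ → ℕ) : Prop where
  rr : rr k v = r
  fp : FP k v x y
  xa : v x < k
  yn : y + 1 < k → k ≤ v (k + (y + 1))

/-- `B(y) ≤ x` or `y` is B-good for the pair -/
def BG (k C x y : ℕ) (v : ℕ → ℕ) : Prop :=
  v (k + y) ≤ k + x ∨
    #{j ∈ range k | k + x < v (k + j) ∧ v (k + j) ≤ v (k + y)} ≤ C * high k v x y

/-! ### exchanges inside A -/

theorem swA_right {x q : ℕ} (hx : x < k) (hq : q < k) (j : ℕ) :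
    sw v x q (k + j) = v (k + j) := sw_of_ne _ (by omega) (by omega)

theorem rr_swA {x q : ℕ} (hx : x < k) (hq : q < k) : rr k (sw v x q) = rr k v :=
  count_left (fun t => k ≤ t) hx hq

theorem nVB_swA {x q : ℕ} (hx : x < k) (hq : q < k) (z : ℕ) :
    nVB k (sw v x q) z = nVB k v z := by
  unfold nVB; simp only [swA_right hx hq]

theorem nYB_swA {x q : ℕ} (hx : x < k) (hq : q < k) (z : ℕ) :
    nYB k (sw v x q) z = nYB k v z := by
  unfold nYB; simp only [swA_right hx hq]

theorem high_swA {x q : ℕ} (hx : x < k) (hq : q < k) (z w : ℕ) :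
    high k (sw v x q) z w = high k v z w := by
  unfold high; simp only [swA_right hx hq]

theorem dd_swA {x q : ℕ} (hx : x < k) (hq : q < k) (z : ℕ) :
    dd k (sw v x q) z = dd k v z := by
  unfold dd DD; simp only [swA_right hx hq]

theorem cc_swA {x q : ℕ} (hxq : x < q) (_hq : q < k) (hvx : v x < k) (hvq : v q < k) :
    cc k (sw v x q) x = cc k v x := by
  unfold cc CC
  congr 1
  ext i
  simp only [mem_filter, mem_range]
  by_cases h1 : i = q
  · subst h1
    rw [sw_right]; omega
  by_cases h2 : i = x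
  · subst h2; omega
  rw [sw_of_ne _ h2 h1]

theorem low_swA {x q y : ℕ} (hxq : x < q) (hq : q < k) (hy : y ≤ k) (hvx : v x < y)
    (hvq : y ≤ v q) :
    low k v x y = low k (sw v x q) x y + 1 := by
  unfold low
  have : {i ∈ range k | v i < k ∧ i ≤ x ∧ v i < y} =
      insert x {i ∈ range k | sw v x q i < k ∧ i ≤ x ∧ sw v x q i < y} := by
    ext i
    simp only [mem_filter, mem_range, mem_insert]
    by_cases h2 : i = x
    · subst h2; simp only [true_or, iff_true]; omega
    by_cases h1 : i = q
    · subst h1; omega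
    rw [sw_of_ne _ h2 h1]
    simp only [h2, false_or]
  rw [this, card_insert_of_notMem]
  simp only [mem_filter, mem_range, sw_left]
  omega

theorem FP.swA {x q y : ℕ} (h : FP k v x y) (_hxq : x < q) (hq : q < k) :
    FP k (sw v x q) x y := by
  have hx : x < k := h.hx
  refine ⟨h.hx, h.hy, ?_, ?_, ?_⟩
  · obtain ⟨j, hj, hjx⟩ := h.vb
    exact ⟨j, hj, by rw [swA_right hx hq]; exact hjx⟩
  · rw [swA_right hx hq]; exact h.yb
  · rw [nVB_swA hx hq, nYB_swA hx hq]; exact h.eq

theorem Base.swA {r x q y : ℕ} (h : Base k r x y v) (hxq : x < q) (hq : q < k)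
    (hvq : v q < k) : Base k r x y (sw v x q) := by
  have hx : x < k := h.fp.hx
  refine ⟨?_, h.fp.swA hxq hq, ?_, ?_⟩
  · rw [rr_swA hx hq]; exact h.rr
  · rw [sw_left]; exact hvq
  · intro h1; rw [swA_right hx hq]; exact h.yn h1

theorem BG.swA {C x q y : ℕ} (h : BG k C x y v) (hx : x < k) (hq : q < k) :
    BG k C x y (sw v x q) := by
  unfold BG at *
  simp only [swA_right hx hq, high_swA hx hq]
  exact h

/-! ### exchanges inside B -/

theorem swB_left {q y : ℕ} {i : ℕ} (hi : i < k) :
    sw v (k + q) (k + y) i = v i := sw_of_ne _ (by omega) (by omega)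

theorem rr_swB {q y : ℕ} : rr k (sw v (k + q) (k + y)) = rr k v := by
  unfold rr
  congr 1
  ext i
  simp only [mem_filter, mem_range]
  constructor
  · rintro ⟨h1, h2⟩; rw [swB_left h1] at h2; exact ⟨h1, h2⟩
  · rintro ⟨h1, h2⟩; rw [swB_left h1]; exact ⟨h1, h2⟩

theorem nVB_swB {q y : ℕ} (hq : q < k) (hy : y < k) (z : ℕ) :
    nVB k (sw v (k + q) (k + y)) z = nVB k v z :=
  count_right (fun t => k ≤ t ∧ t ≤ k + z) hq hy

theorem nYB_swB {q y : ℕ} (hvq : k ≤ v (k + q)) (hvy : k ≤ v (k + y)) (z : ℕ) :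
    nYB k (sw v (k + q) (k + y)) z = nYB k v z := by
  unfold nYB
  congr 1
  ext j
  simp only [mem_filter, mem_range]
  by_cases h1 : j = q
  · subst h1; rw [sw_left]; omega
  by_cases h2 : j = y
  · subst h2; rw [sw_right]; omega
  rw [sw_of_ne _ (by omega) (by omega)]

theorem high_swB {x q y : ℕ} (hqy : q < y) (hy : y < k) (hvy : k + x < v (k + y))
    (hvq : v (k + q) ≤ k + x) :
    high k v x y = high k (sw v (k + q) (k + y)) x y + 1 := by
  unfold high
  have : {j ∈ range k | k ≤ v (k + j) ∧ y ≤ j ∧ k + x < v (k + j)} =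
      insert y {j ∈ range k | k ≤ sw v (k + q) (k + y) (k + j) ∧ y ≤ j ∧
        k + x < sw v (k + q) (k + y) (k + j)} := by
    ext j
    simp only [mem_filter, mem_range, mem_insert]
    by_cases h2 : j = y
    · subst h2; simp only [true_or, iff_true]; omega
    by_cases h1 : j = q
    · subst h1; omega
    rw [sw_of_ne _ (by omega) (by omega)]
    simp only [h2, false_or]
  rw [this, card_insert_of_notMem]
  simp only [mem_filter, mem_range, sw_right]
  omega

theorem FP.swB {x q y : ℕ} (h : FP k v x y) (hqy : q < y) (hvq : k ≤ v (k + q)) :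
    FP k (sw v (k + q) (k + y)) x y := by
  have hy : y < k := h.hy
  refine ⟨h.hx, h.hy, ?_, ?_, ?_⟩
  · obtain ⟨j, hj, hjx⟩ := h.vb
    by_cases h1 : j = q
    · subst h1; exact ⟨y, hy, by rw [sw_right]; exact hjx⟩
    by_cases h2 : j = y
    · subst h2; exact ⟨q, by omega, by rw [sw_left]; exact hjx⟩
    exact ⟨j, hj, by rw [sw_of_ne _ (by omega) (by omega)]; exact hjx⟩
  · rw [sw_right]; exact hvq
  · rw [nVB_swB (by omega) hy, nYB_swB hvq h.yb]; exact h.eq

theorem Base.swB {r x q y : ℕ} (h : Base k r x y v) (hqy : q < y) (hvq : k ≤ v (k + q)) :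
    Base k r x y (sw v (k + q) (k + y)) := by
  refine ⟨?_, h.fp.swB hqy hvq, ?_, ?_⟩
  · rw [rr_swB]; exact h.rr
  · rw [swB_left h.fp.hx]; exact h.xa
  · intro h1
    rw [sw_of_ne _ (by omega) (by omega)]; exact h.yn h1

end Vale.Agent.P235.R2.H433.S
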