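/-
P235-M, static statement (S): the two preparing exchanges for one fixed pair `(x,y)`.
-/
import Vale.Agent.P235.R2.H433.S.Moves

namespace Vale.Agent.P235.R2.H433.S

open Finset Classical

variable {k : ℕ}

/-- `A(x) ≥ y`, or `2χ ≤ low` and `x` is A-good for the pair -/
def AG (k C x y : ℕ) (v : ℕ → ℕ) : Prop :=
  y ≤ v x ∨ (2 * (cc k v x + dd k v y) ≤ low k v x y ∧
    #{i ∈ range k | v x ≤ v i ∧ v i < y} ≤ C * low k v x y + (cc k v x + dd k v y))

/-- all good elements for the pair -/
noncomputable def Sxy (k r C : ℕ) (U : Finset (ℕ → ℕ)) (x y : ℕ) : Finset (ℕ → ℕ) :=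
  {v ∈ U | Base k r x y v ∧ BG k C x y v ∧ AG k C x y v}

/-- the elements for which the flip is allowed -/
noncomputable def Txy (k r : ℕ) (U : Finset (ℕ → ℕ)) (x y : ℕ) : Finset (ℕ → ℕ) :=
  {v ∈ U | Base k r x y v ∧ y ≤ v x ∧ v (k + y) ≤ k + x}

theorem stepA {r C : ℕ} {U : Finset (ℕ → ℕ)} (hOk : ∀ v ∈ U, Ok k v) (hup : UpCl k U)
    (x y : ℕ) :
    #{v ∈ U | Base k r x y v ∧ BG k C x y v ∧ v x < y ∧
        2 * (cc k v x + dd k v y) ≤ low k v x y ∧
        #{i ∈ range k | v x ≤ v i ∧ v i < y} ≤ C * low k v x y + (cc k v x + dd k v y)} ≤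
      2 * (C + 1) * #{v ∈ U | Base k r x y v ∧ BG k C x y v ∧ y ≤ v x} := by
  apply dcount _ _ (fun v u => ∃ q, x < q ∧ q < k ∧ v q < k ∧ y ≤ v q ∧ u = sw v x q)
    (fun v => low k v x y) (fun u => low k u x y + 1)
  · intro v hv
    simp only [mem_filter] at hv
    obtain ⟨hvU, hb, -, hlt, -, -⟩ := hv
    have hx := hb.fp.hx
    have hy := hb.fp.hy
    apply card_pos.2
    exact ⟨x, by simp only [mem_filter, mem_range]; omega⟩
  · rintro v hv u hu ⟨q, hxq, hq, hvq, hyq, rfl⟩
    simp only [mem_filter] at hv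
    obtain ⟨hvU, hb, -, hlt, -, -⟩ := hv
    exact low_swA hxq hq hb.fp.hy.le hlt hyq
  · intro v hv
    simp only [mem_filter] at hv
    obtain ⟨hvU, hb, hbg, hlt, hchi, hag⟩ := hv
    have hx := hb.fp.hx
    have hy := hb.fp.hy
    have hok := hOk v hvU
    refine ⟨(PA k v x y).image (fun q => sw v x q), ?_, ?_, ?_⟩
    · intro u hu
      rw [mem_image] at hu
      obtain ⟨q, hq, rfl⟩ := hu
      simp only [PA, mem_filter, mem_range] at hq
      obtain ⟨hqk, hvq, hxq, hyq⟩ := hq
      simp only [mem_filter]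
      refine ⟨?_, hb.swA hxq hqk hvq, hbg.swA hx hqk, by rw [sw_left]; exact hyq⟩
      exact hup v hvU x q hxq (by omega) (by omega) (by omega) (by omega)
    · intro u hu
      rw [mem_image] at hu
      obtain ⟨q, hq, rfl⟩ := hu
      simp only [PA, mem_filter, mem_range] at hq
      exact ⟨q, hq.2.2.1, hq.1, hq.2.1, hq.2.2.2, rfl⟩
    · rw [card_image_of_injOn]
      · have h1 := PA_card (k := k) (v := v) x y
        have h2 := hok.nXA_eq hx
        have h3 := hok.nYB_eq hy.le
        have h4 := hb.fp.eq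
        omega
      · intro q hq q' hq' hqq
        simp only [PA, coe_filter, mem_range, Set.mem_ofPred_eq] at hq hq'
        have := congrFun hqq x
        simp only [sw_left] at this
        exact hok.inj q (by omega) q' (by omega) this
  · intro u hu
    simp only [mem_filter] at hu
    obtain ⟨huU, hb, hbg, hyu⟩ := hu
    have hx := hb.fp.hx
    refine ⟨({q ∈ range k | u q < y ∧
      #{i ∈ range k | u q ≤ u i ∧ u i < y} ≤ (C + 1) * (low k u x y + 1)}).image
        (fun q => sw u x q), ?_, ?_⟩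
    · rintro v hv ⟨q, hxq, hq, hvq, hyq, rfl⟩
      simp only [mem_filter] at hv
      obtain ⟨hvU, hb', -, hlt, hchi, hag⟩ := hv
      rw [mem_image]
      refine ⟨q, ?_, sw_sw v x q⟩
      simp only [mem_filter, mem_range, sw_right]
      refine ⟨hq, hlt, ?_⟩
      have hlow := low_swA hxq hq hb'.fp.hy.le hlt hyq
      have hc := count_left (k := k) (v := v) (fun t => v x ≤ t ∧ t < y) hx hq
      rw [hc, ← hlow]
      nlinarith
    · refine card_image_le.trans ?_
      apply cand_low k u y
      intro q hq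
      simpa using hq

theorem stepB {r C : ℕ} {U : Finset (ℕ → ℕ)} (hOk : ∀ v ∈ U, Ok k v) (hup : UpCl k U)
    (x y : ℕ) :
    #{v ∈ U | Base k r x y v ∧ y ≤ v x ∧ k + x < v (k + y) ∧
        #{j ∈ range k | k + x < v (k + j) ∧ v (k + j) ≤ v (k + y)} ≤ C * high k v x y} ≤
      1 * C * #(Txy k r U x y) := by
  unfold Txy
  apply dcount _ _ (fun v u => ∃ q, q < y ∧ k ≤ v (k + q) ∧ v (k + q) ≤ k + x ∧
      u = sw v (k + q) (k + y))
    (fun v => high k v x y) (fun u => high k u x y + 1)
  · intro v hv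
    simp only [mem_filter] at hv
    obtain ⟨hvU, hb, -, hlt, -⟩ := hv
    have hx := hb.fp.hx
    have hy := hb.fp.hy
    apply card_pos.2
    exact ⟨y, by simp only [mem_filter, mem_range]; omega⟩
  · rintro v hv u hu ⟨q, hqy, hvq, hvq', rfl⟩
    simp only [mem_filter] at hv
    obtain ⟨hvU, hb, -, hlt, -⟩ := hv
    exact high_swB hqy hb.fp.hy hlt hvq'
  · intro v hv
    simp only [mem_filter] at hv
    obtain ⟨hvU, hb, hyx, hlt, hbg⟩ := hv
    have hx := hb.fp.hx
    have hy := hb.fp.hy
    have hok := hOk v hvU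
    refine ⟨(PB k v x y).image (fun q => sw v (k + q) (k + y)), ?_, ?_, ?_⟩
    · intro u hu
      rw [mem_image] at hu
      obtain ⟨q, hq, rfl⟩ := hu
      simp only [PB, mem_filter, mem_range] at hq
      obtain ⟨hqk, hvq, hqy, hvq'⟩ := hq
      simp only [mem_filter]
      refine ⟨?_, hb.swB hqy hvq, by rw [swB_left hx]; exact hyx, by rw [sw_right]; exact hvq'⟩
      have := hok.lt (k + y) (by omega)
      exact hup v hvU (k + q) (k + y) (by omega) (by omega) (by omega) (by omega) (by omega)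
    · intro u hu
      rw [mem_image] at hu
      obtain ⟨q, hq, rfl⟩ := hu
      simp only [PB, mem_filter, mem_range] at hq
      exact ⟨q, hq.2.2.1, hq.2.1, hq.2.2.2, rfl⟩
    · rw [card_image_of_injOn]
      · have h1 := PB_card (k := k) (v := v) x y
        have h4 := hb.fp.eq
        omega
      · intro q hq q' hq' hqq
        simp only [PB, coe_filter, mem_range, Set.mem_ofPred_eq] at hq hq'
        have := congrFun hqq (k + y)
        simp only [sw_right] at this
        have := hok.inj (k + q) (by omega) (k + q') (by omega) this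
        omega
  · intro u hu
    simp only [mem_filter] at hu
    obtain ⟨huU, hb, hyu, huy⟩ := hu
    have hx := hb.fp.hx
    have hy := hb.fp.hy
    refine ⟨({q ∈ range k | k + x < u (k + q) ∧
      #{j ∈ range k | k + x < u (k + j) ∧ u (k + j) ≤ u (k + q)} ≤
        C * (high k u x y + 1)}).image (fun q => sw u (k + q) (k + y)), ?_, ?_⟩
    · rintro v hv ⟨q, hqy, hvq, hvq', rfl⟩
      simp only [mem_filter] at hv
      obtain ⟨hvU, hb', -, hlt, hbg⟩ := hv
      rw [mem_image]
      refine ⟨q, ?_, sw_sw v _ _⟩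
      simp only [mem_filter, mem_range, sw_left]
      refine ⟨by omega, hlt, ?_⟩
      have hhigh := high_swB hqy hy hlt hvq'
      have hc := count_right (k := k) (v := v) (fun t => k + x < t ∧ t ≤ v (k + y))
        (show q < k by omega) hy
      rw [hc, ← hhigh]
      exact hbg
    · refine card_image_le.trans ?_
      apply cand_high k u x
      intro q hq
      simpa using hq

/-- for one pair: `#S_xy ≤ (2C+3)(C+1) #T_xy` -/
theorem stepAB {r C : ℕ} {U : Finset (ℕ → ℕ)} (hOk : ∀ v ∈ U, Ok k v) (hup : UpCl k U)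
    (x y : ℕ) : #(Sxy k r C U x y) ≤ (2 * C + 3) * (C + 1) * #(Txy k r U x y) := by
  set SA := {v ∈ U | Base k r x y v ∧ BG k C x y v ∧ v x < y ∧
        2 * (cc k v x + dd k v y) ≤ low k v x y ∧
        #{i ∈ range k | v x ≤ v i ∧ v i < y} ≤ C * low k v x y + (cc k v x + dd k v y)} with hSA
  set TA := {v ∈ U | Base k r x y v ∧ BG k C x y v ∧ y ≤ v x} with hTA
  set SB := {v ∈ U | Base k r x y v ∧ y ≤ v x ∧ k + x < v (k + y) ∧
        #{j ∈ range k | k + x < v (k + j) ∧ v (k + j) ≤ v (k + y)} ≤ C * high k v x y} with hSB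
  have h1 : #SA ≤ 2 * (C + 1) * #TA := stepA hOk hup x y
  have h2 : #SB ≤ 1 * C * #(Txy k r U x y) := stepB hOk hup x y
  have h3 : #(Sxy k r C U x y) ≤ #SA + #TA := by
    refine (card_le_card ?_).trans (card_union_le _ _)
    intro v hv
    simp only [Sxy, mem_filter] at hv
    obtain ⟨hvU, hb, hbg, hag⟩ := hv
    unfold AG at hag
    simp only [hSA, hTA, mem_union, mem_filter]
    by_cases hyx : y ≤ v x
    · exact Or.inr ⟨hvU, hb, hbg, hyx⟩
    · rcases hag with hag | hag
      · exact absurd hag hyx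
      · exact Or.inl ⟨hvU, hb, hbg, by omega, hag⟩
  have h4 : #TA ≤ #SB + #(Txy k r U x y) := by
    refine (card_le_card ?_).trans (card_union_le _ _)
    intro v hv
    simp only [hTA, mem_filter] at hv
    obtain ⟨hvU, hb, hbg, hyx⟩ := hv
    unfold BG at hbg
    simp only [hSB, Txy, mem_union, mem_filter]
    by_cases hle : v (k + y) ≤ k + x
    · exact Or.inr ⟨hvU, hb, hyx, hle⟩
    · rcases hbg with hbg | hbg
      · exact absurd hbg hle
      · exact Or.inl ⟨hvU, hb, hyx, by omega, hbg⟩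
  calc #(Sxy k r C U x y) ≤ (2 * C + 3) * #TA := by nlinarith
    _ ≤ (2 * C + 3) * ((C + 1) * #(Txy k r U x y)) := Nat.mul_le_mul_left _ (by nlinarith)
    _ = _ := by ring

end Vale.Agent.P235.R2.H433.S
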